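import Mathlib.LinearAlgebra.Matrix.PosDef
import Mathlib.Analysis.Matrix.PosDef
import Mathlib.Analysis.Complex.Order
import Mathlib.Analysis.Real.Sqrt
import Mathlib.Tactic

/-!
P372, abstract hybrid (design #21502 of helper654): all maps act on one matrix space, the sites are
processed one at a time, weights are positive functionals.
-/

open Matrix
open scoped ComplexOrder

set_option linter.unusedSectionVars false
set_option linter.unusedVariables false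

namespace Vale.Agent.P372.H654

variable {I : Type} [Fintype I] [DecidableEq I]


/-- A Hermitian corner `Z` of the pair `X`, `Y`. -/
def Cor (X Y Z : Matrix I I ℂ) : Prop := Zᴴ = Z ∧ (fromBlocks X Z Z Y).PosSemidef

/-- Positive functional. -/
def PosF (φ : Matrix I I ℂ →ₗ[ℂ] ℂ) : Prop := ∀ X : Matrix I I ℂ, X.PosSemidef → 0 ≤ (φ X).re

/-- A map that keeps `2 × 2` blocks positive semidefinite and commutes with the adjoint. -/
structure BP (f : Matrix I I ℂ →ₗ[ℂ] Matrix I I ℂ) : Prop where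
  blk : ∀ X Z Z' Y : Matrix I I ℂ, (fromBlocks X Z Z' Y).PosSemidef →
    (fromBlocks (f X) (f Z) (f Z') (f Y)).PosSemidef
  star : ∀ Z : Matrix I I ℂ, (f Z)ᴴ = f Zᴴ

theorem psd_left {X Z Z' Y : Matrix I I ℂ} (h : (fromBlocks X Z Z' Y).PosSemidef) :
    X.PosSemidef := by
  have := h.submatrix (Sum.inl : I → I ⊕ I)
  rwa [show (fromBlocks X Z Z' Y).submatrix Sum.inl Sum.inl = X from by ext i j; rfl] at this

theorem psd_right {X Z Z' Y : Matrix I I ℂ} (h : (fromBlocks X Z Z' Y).PosSemidef) :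
    Y.PosSemidef := by
  have := h.submatrix (Sum.inr : I → I ⊕ I)
  rwa [show (fromBlocks X Z Z' Y).submatrix Sum.inr Sum.inr = Y from by ext i j; rfl] at this

theorem psd_diag {X Y : Matrix I I ℂ} (hX : X.PosSemidef) (hY : Y.PosSemidef) :
    (fromBlocks X 0 0 Y).PosSemidef := by
  have h1 : (fromBlocks X 0 0 Y).IsHermitian := by
    rw [IsHermitian, fromBlocks_conjTranspose, hX.isHermitian.eq, hY.isHermitian.eq]
    simp
  refine Matrix.PosSemidef.of_dotProduct_mulVec_nonneg h1 fun x => ?_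
  have hx : x = Sum.elim (x ∘ Sum.inl) (x ∘ Sum.inr) := by
    ext i; cases i <;> rfl
  rw [hx, fromBlocks_mulVec]
  have e : star (Sum.elim (x ∘ Sum.inl) (x ∘ Sum.inr)) =
      Sum.elim (star (x ∘ Sum.inl)) (star (x ∘ Sum.inr)) := by
    ext i; cases i <;> rfl
  rw [e]
  simp only [Sum.elim_comp_inl, Sum.elim_comp_inr, zero_mulVec, add_zero, zero_add,
    sumElim_dotProduct_sumElim]
  exact add_nonneg (hX.dotProduct_mulVec_nonneg _) (hY.dotProduct_mulVec_nonneg _)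

theorem BP.psd {f : Matrix I I ℂ →ₗ[ℂ] Matrix I I ℂ} (hf : BP f) {X : Matrix I I ℂ}
    (hX : X.PosSemidef) : (f X).PosSemidef := by
  have := hf.blk X 0 0 X (psd_diag hX hX)
  exact psd_left this

theorem BP.cor {f : Matrix I I ℂ →ₗ[ℂ] Matrix I I ℂ} (hf : BP f) {X Y Z : Matrix I I ℂ}
    (h : Cor X Y Z) : Cor (f X) (f Y) (f Z) :=
  ⟨by rw [hf.star, h.1], hf.blk _ _ _ _ h.2⟩

theorem Cor.add {X Y Z X' Y' Z' : Matrix I I ℂ} (h : Cor X Y Z) (h' : Cor X' Y' Z') :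
    Cor (X + X') (Y + Y') (Z + Z') := by
  refine ⟨by rw [conjTranspose_add, h.1, h'.1], ?_⟩
  have := h.2.add h'.2
  rwa [fromBlocks_add] at this

theorem Cor.smul {X Y Z : Matrix I I ℂ} (h : Cor X Y Z) {t : ℝ} (ht : 0 ≤ t) :
    Cor ((t : ℂ) • X) ((t : ℂ) • Y) ((t : ℂ) • Z) := by
  refine ⟨by rw [conjTranspose_smul, h.1]; simp, ?_⟩
  have := h.2.smul (show (0 : ℂ) ≤ (t : ℂ) by exact_mod_cast ht)
  rwa [fromBlocks_smul] at this

/-- `2 Re φ Z ≤ φ X + φ Y`. -/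
theorem Cor.bound {X Y Z : Matrix I I ℂ} (h : Cor X Y Z) {φ : Matrix I I ℂ →ₗ[ℂ] ℂ} (hφ : PosF φ) :
    2 * (φ Z).re ≤ (φ X).re + (φ Y).re := by
  have h1 : (X - Z - (Z - Y)).PosSemidef := by
    have h2 := h.2.conjTranspose_mul_mul_same
      (fromBlocks (1 : Matrix I I ℂ) (0 : Matrix I I ℂ) (-1 : Matrix I I ℂ) (0 : Matrix I I ℂ))
    rw [fromBlocks_conjTranspose, fromBlocks_multiply, fromBlocks_multiply] at h2
    have h3 := psd_left h2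
    have e : X - Z - (Z - Y) = ((1 : Matrix I I ℂ)ᴴ * X + (-1 : Matrix I I ℂ)ᴴ * Z) * 1 +
        ((1 : Matrix I I ℂ)ᴴ * Z + (-1 : Matrix I I ℂ)ᴴ * Y) * (-1) := by
      rw [conjTranspose_neg, conjTranspose_one]
      noncomm_ring
    rw [e]
    exact h3
  have h2 := hφ _ h1
  simp only [map_sub, Complex.sub_re] at h2
  linarith

/-- The optimal value of a Hermitian corner. -/
noncomputable def S (φ : Matrix I I ℂ →ₗ[ℂ] ℂ) (X Y : Matrix I I ℂ) : ℝ :=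
  sSup {r | ∃ Z, Cor X Y Z ∧ r = (φ Z).re}

theorem bdd {φ : Matrix I I ℂ →ₗ[ℂ] ℂ} (hφ : PosF φ) (X Y : Matrix I I ℂ) :
    BddAbove {r | ∃ Z, Cor X Y Z ∧ r = (φ Z).re} := by
  refine ⟨((φ X).re + (φ Y).re) / 2, ?_⟩
  rintro r ⟨Z, hZ, rfl⟩
  have := hZ.bound hφ
  linarith

theorem le_S {φ : Matrix I I ℂ →ₗ[ℂ] ℂ} (hφ : PosF φ) {X Y Z : Matrix I I ℂ} (h : Cor X Y Z) :
    (φ Z).re ≤ S φ X Y :=
  le_csSup (bdd hφ X Y) ⟨Z, h, rfl⟩

theorem cor_zero {X Y : Matrix I I ℂ} (hX : X.PosSemidef) (hY : Y.PosSemidef) : Cor X Y 0 :=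
  ⟨conjTranspose_zero, psd_diag hX hY⟩

theorem S_le (φ : Matrix I I ℂ →ₗ[ℂ] ℂ) {X Y : Matrix I I ℂ} (hX : X.PosSemidef)
    (hY : Y.PosSemidef) {c : ℝ} (h : ∀ Z, Cor X Y Z → (φ Z).re ≤ c) : S φ X Y ≤ c := by
  refine csSup_le ⟨_, 0, cor_zero hX hY, rfl⟩ ?_
  rintro r ⟨Z, hZ, rfl⟩
  exact h Z hZ

theorem S_nonneg {φ : Matrix I I ℂ →ₗ[ℂ] ℂ} (hφ : PosF φ) {X Y : Matrix I I ℂ}
    (hX : X.PosSemidef) (hY : Y.PosSemidef) : 0 ≤ S φ X Y := by
  have := le_S hφ (cor_zero hX hY)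
  simpa using this

theorem PosF.comp {φ : Matrix I I ℂ →ₗ[ℂ] ℂ} (hφ : PosF φ) {f : Matrix I I ℂ →ₗ[ℂ] Matrix I I ℂ}
    (hf : BP f) : PosF (φ ∘ₗ f) := fun X hX => hφ _ (hf.psd hX)

/-- The data of the sites. -/
structure Sites (ι : Type) (τ ρ δ : ι → (Matrix I I ℂ →ₗ[ℂ] Matrix I I ℂ)) : Prop where
  bτ : ∀ i, BP (τ i)
  bρ : ∀ i, BP (ρ i)
  bδ : ∀ i, BP (δ i)
  sum : ∀ i X, ρ i X + δ i X = (2 : ℂ) • τ i X
  cττ : ∀ i j, i ≠ j → ∀ X, τ i (τ j X) = τ j (τ i X)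
  cτρ : ∀ i j, i ≠ j → ∀ X, τ i (ρ j X) = ρ j (τ i X)
  cρρ : ∀ i j, i ≠ j → ∀ X, ρ i (ρ j X) = ρ j (ρ i X)

section

variable {ι : Type} {τ ρ δ : ι → (Matrix I I ℂ →ₗ[ℂ] Matrix I I ℂ)}

theorem one_site (H : Sites ι τ ρ δ) (i : ι) {φ : Matrix I I ℂ →ₗ[ℂ] ℂ} (hφ : PosF φ)
    (hi : φ ∘ₗ τ i = φ) {X Y : Matrix I I ℂ} (hX : X.PosSemidef) (hY : Y.PosSemidef) :
    S φ (ρ i X) (ρ i Y) + 2 * S φ X Y ≤ 2 * S φ (τ i X) (τ i Y) + S (φ ∘ₗ ρ i) X Y := by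
  have key : ∀ W, Cor (ρ i X) (ρ i Y) W → ∀ Z, Cor X Y Z →
      (φ W).re + 2 * (φ Z).re ≤ 2 * S φ (τ i X) (τ i Y) + S (φ ∘ₗ ρ i) X Y := by
    intro W hW Z hZ
    have h1 := (hW.add ((H.bδ i).cor hZ)).smul (show (0 : ℝ) ≤ 1 / 2 by norm_num)
    rw [H.sum, H.sum, smul_smul, smul_smul] at h1
    have e : (((1 / 2 : ℝ) : ℂ) * 2) = 1 := by push_cast; norm_num
    rw [e, one_smul, one_smul] at h1
    have h2 := le_S hφ h1
    have h3 := le_S (hφ.comp (H.bρ i)) hZ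
    have h4 : φ (δ i Z) = 2 * φ Z - φ (ρ i Z) := by
      have := congrArg φ (H.sum i Z)
      rw [map_add, map_smul, smul_eq_mul] at this
      have h5 : φ (τ i Z) = φ Z := by
        conv_rhs => rw [← hi]
        rfl
      rw [h5] at this
      rw [← this]; ring
    rw [map_smul, map_add, h4, smul_eq_mul] at h2
    simp only [LinearMap.comp_apply] at h3
    have h6 : (((1 / 2 : ℝ) : ℂ) * (φ W + (2 * φ Z - φ (ρ i Z)))).re =
        1 / 2 * ((φ W).re + (2 * (φ Z).re - (φ (ρ i Z)).re)) := by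
      rw [Complex.re_ofReal_mul]
      simp
    rw [h6] at h2
    linarith
  have h1 : ∀ Z, Cor X Y Z → S φ (ρ i X) (ρ i Y) + 2 * (φ Z).re ≤
      2 * S φ (τ i X) (τ i Y) + S (φ ∘ₗ ρ i) X Y := by
    intro Z hZ
    have := S_le φ ((H.bρ i).psd hX) ((H.bρ i).psd hY)
      (c := 2 * S φ (τ i X) (τ i Y) + S (φ ∘ₗ ρ i) X Y - 2 * (φ Z).re)
      (fun W hW => by linarith [key W hW Z hZ])
    linarith
  have := S_le φ hX hY
    (c := (2 * S φ (τ i X) (τ i Y) + S (φ ∘ₗ ρ i) X Y - S φ (ρ i X) (ρ i Y)) / 2)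
    (fun Z hZ => by linarith [h1 Z hZ])
  linarith

/-- Label before the corner. -/
noncomputable def F (ρ : ι → (Matrix I I ℂ →ₗ[ℂ] Matrix I I ℂ)) :
    List ι → (Matrix I I ℂ →ₗ[ℂ] ℂ) → Matrix I I ℂ → Matrix I I ℂ → ℝ
  | [], φ, X, Y => S φ X Y
  | i :: L, φ, X, Y => 2 / 3 * F ρ L φ X Y + 1 / 3 * F ρ L φ (ρ i X) (ρ i Y)

/-- Label after the corner. -/
noncomputable def E (τ ρ : ι → (Matrix I I ℂ →ₗ[ℂ] Matrix I I ℂ)) :
    List ι → (Matrix I I ℂ →ₗ[ℂ] ℂ) → Matrix I I ℂ → Matrix I I ℂ → ℝ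
  | [], φ, X, Y => S φ X Y
  | i :: L, φ, X, Y => 2 / 3 * E τ ρ L φ (τ i X) (τ i Y) + 1 / 3 * E τ ρ L (φ ∘ₗ ρ i) X Y

/-- The product of the site maps `2/3 + 1/3 ρ`. -/
noncomputable def Lam (ρ : ι → (Matrix I I ℂ →ₗ[ℂ] Matrix I I ℂ)) :
    List ι → (Matrix I I ℂ →ₗ[ℂ] Matrix I I ℂ)
  | [] => LinearMap.id
  | i :: L => Lam ρ L ∘ₗ ((2 / 3 : ℂ) • LinearMap.id + (1 / 3 : ℂ) • ρ i)

theorem exch (H : Sites ι τ ρ δ) (i : ι) : ∀ (L : List ι), i ∉ L →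
    ∀ {φ : Matrix I I ℂ →ₗ[ℂ] ℂ}, PosF φ → φ ∘ₗ τ i = φ →
    ∀ {X Y : Matrix I I ℂ}, X.PosSemidef → Y.PosSemidef →
    E τ ρ L φ (ρ i X) (ρ i Y) + 2 * E τ ρ L φ X Y ≤
      2 * E τ ρ L φ (τ i X) (τ i Y) + E τ ρ L (φ ∘ₗ ρ i) X Y := by
  intro L
  induction L with
  | nil => intro _ φ hφ hi X Y hX hY; exact one_site H i hφ hi hX hY
  | cons j L ih =>
    intro hL φ hφ hi X Y hX hY
    have hij : i ≠ j := fun h => hL (by rw [h]; exact List.mem_cons_self)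
    have hiL : i ∉ L := fun h => hL (List.mem_cons_of_mem _ h)
    have h1 := ih hiL hφ hi ((H.bτ j).psd hX) ((H.bτ j).psd hY)
    have hj : (φ ∘ₗ ρ j) ∘ₗ τ i = φ ∘ₗ ρ j := by
      refine LinearMap.ext fun M => ?_
      simp only [LinearMap.comp_apply]
      rw [← H.cτρ i j hij M]
      conv_rhs => rw [← hi]
      rfl
    have h2 := ih hiL (hφ.comp (H.bρ j)) hj hX hY
    have e1 : (φ ∘ₗ ρ i) ∘ₗ ρ j = (φ ∘ₗ ρ j) ∘ₗ ρ i := by
      refine LinearMap.ext fun M => ?_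
      simp only [LinearMap.comp_apply]
      rw [H.cρρ i j hij M]
    simp only [E]
    rw [H.cττ j i hij.symm X, H.cττ j i hij.symm Y, H.cτρ j i hij.symm X, H.cτρ j i hij.symm Y, e1]
    linarith

theorem F_le_E (H : Sites ι τ ρ δ) : ∀ (L : List ι), L.Nodup →
    ∀ {φ : Matrix I I ℂ →ₗ[ℂ] ℂ}, PosF φ → (∀ i ∈ L, φ ∘ₗ τ i = φ) →
    ∀ {X Y : Matrix I I ℂ}, X.PosSemidef → Y.PosSemidef →
    F ρ L φ X Y ≤ E τ ρ L φ X Y := by
  intro L
  induction L with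
  | nil => intro _ φ _ _ X Y _ _; exact le_rfl
  | cons i L ih =>
    intro hL φ hφ hi X Y hX hY
    rw [List.nodup_cons] at hL
    have h1 := ih hL.2 hφ (fun j hj => hi j (List.mem_cons_of_mem _ hj)) hX hY
    have h2 := ih hL.2 hφ (fun j hj => hi j (List.mem_cons_of_mem _ hj)) ((H.bρ i).psd hX)
      ((H.bρ i).psd hY)
    have h3 := exch H i L hL.1 hφ (hi i List.mem_cons_self) hX hY
    simp only [F, E]
    linarith

theorem F_nonneg (hρ : ∀ i, BP (ρ i)) : ∀ (L : List ι) {φ : Matrix I I ℂ →ₗ[ℂ] ℂ}, PosF φ →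
    ∀ {X Y : Matrix I I ℂ}, X.PosSemidef → Y.PosSemidef → 0 ≤ F ρ L φ X Y := by
  intro L
  induction L with
  | nil => intro φ hφ X Y hX hY; exact S_nonneg hφ hX hY
  | cons i L ih =>
    intro φ hφ X Y hX hY
    have h1 := ih hφ hX hY
    have h2 := ih hφ ((hρ i).psd hX) ((hρ i).psd hY)
    simp only [F]
    linarith

theorem cs2 {x y x' y' : ℝ} (hx : 0 ≤ x) (hy : 0 ≤ y) (hx' : 0 ≤ x') (hy' : 0 ≤ y') :
    2 / 3 * √(x * y) + 1 / 3 * √(x' * y') ≤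
      √((2 / 3 * x + 1 / 3 * x') * (2 / 3 * y + 1 / 3 * y')) := by
  refine Real.le_sqrt_of_sq_le ?_
  have h1 : √(x * y) = √x * √y := Real.sqrt_mul hx y
  have h2 : √(x' * y') = √x' * √y' := Real.sqrt_mul hx' y'
  rw [h1, h2]
  have a := Real.sq_sqrt hx
  have b := Real.sq_sqrt hy
  have c := Real.sq_sqrt hx'
  have d := Real.sq_sqrt hy'
  set p := √x
  set q := √y
  set r := √x'
  set s := √y'
  rw [← a, ← b, ← c, ← d]
  nlinarith [sq_nonneg (p * s - r * q)]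

theorem Lam_comm_τ (H : Sites ι τ ρ δ) (i : ι) : ∀ (L : List ι), i ∉ L → ∀ X : Matrix I I ℂ,
    Lam ρ L (τ i X) = τ i (Lam ρ L X) := by
  intro L
  induction L with
  | nil => intro _ X; rfl
  | cons j L ih =>
    intro hL X
    have hij : i ≠ j := fun h => hL (by rw [h]; exact List.mem_cons_self)
    have hiL : i ∉ L := fun h => hL (List.mem_cons_of_mem _ h)
    simp only [Lam, LinearMap.comp_apply, LinearMap.add_apply, LinearMap.smul_apply,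
      LinearMap.id_apply]
    rw [← H.cτρ i j hij, ← ih hiL, map_add (τ i), map_smul, map_smul]

theorem Lam_comm_ρ (H : Sites ι τ ρ δ) (i : ι) : ∀ (L : List ι), i ∉ L → ∀ X : Matrix I I ℂ,
    Lam ρ L (ρ i X) = ρ i (Lam ρ L X) := by
  intro L
  induction L with
  | nil => intro _ X; rfl
  | cons j L ih =>
    intro hL X
    have hij : i ≠ j := fun h => hL (by rw [h]; exact List.mem_cons_self)
    have hiL : i ∉ L := fun h => hL (List.mem_cons_of_mem _ h)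
    simp only [Lam, LinearMap.comp_apply, LinearMap.add_apply, LinearMap.smul_apply,
      LinearMap.id_apply]
    rw [← H.cρρ i j hij, ← ih hiL, map_add (ρ i), map_smul, map_smul]

theorem Lam_psd (hρ : ∀ i, BP (ρ i)) : ∀ (L : List ι) {X : Matrix I I ℂ}, X.PosSemidef →
    (Lam ρ L X).PosSemidef := by
  intro L
  induction L with
  | nil => intro X hX; exact hX
  | cons i L ih =>
    intro X hX
    simp only [Lam, LinearMap.comp_apply, LinearMap.add_apply, LinearMap.smul_apply,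
      LinearMap.id_apply]
    refine ih ?_
    have a : (0 : ℂ) ≤ 2 / 3 := by
      have : (0 : ℂ) ≤ ((2 / 3 : ℝ) : ℂ) := by exact_mod_cast (by norm_num : (0 : ℝ) ≤ 2 / 3)
      simpa using this
    have b : (0 : ℂ) ≤ 1 / 3 := by
      have : (0 : ℂ) ≤ ((1 / 3 : ℝ) : ℂ) := by exact_mod_cast (by norm_num : (0 : ℝ) ≤ 1 / 3)
      simpa using this
    exact (hX.smul a).add (((hρ i).psd hX).smul b)

/-- The family of quadruples `P_j ⊗ Q_k`, abstractly. -/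
structure Prods (τ : ι → (Matrix I I ℂ →ₗ[ℂ] Matrix I I ℂ))
    (𝒬 : (Bool → Bool → Matrix I I ℂ) → Prop) : Prop where
  psd : ∀ M, 𝒬 M → ∀ j k, (M j k).PosSemidef
  map : ∀ M, 𝒬 M → ∀ i, 𝒬 fun j k => τ i (M j k)
  core : ∀ M, 𝒬 M → ∀ (φ : Matrix I I ℂ →ₗ[ℂ] ℂ), PosF φ → ∀ Z, Cor (M false false) (M true true) Z →
    (φ Z).re ≤ √((φ (M false true)).re * (φ (M true false)).re)

theorem E_le (H : Sites ι τ ρ δ) {𝒬 : (Bool → Bool → Matrix I I ℂ) → Prop} (HQ : Prods τ 𝒬) :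
    ∀ (L : List ι), L.Nodup → ∀ {φ : Matrix I I ℂ →ₗ[ℂ] ℂ}, PosF φ → (∀ i ∈ L, φ ∘ₗ τ i = φ) →
    ∀ {M : Bool → Bool → Matrix I I ℂ}, 𝒬 M →
    E τ ρ L φ (M false false) (M true true) ≤
      √((φ (Lam ρ L (M false true))).re * (φ (Lam ρ L (M true false))).re) := by
  intro L
  induction L with
  | nil =>
    intro _ φ hφ _ M hM
    exact S_le φ (HQ.psd M hM _ _) (HQ.psd M hM _ _) (HQ.core M hM φ hφ)
  | cons i L ih =>
    intro hL φ hφ hi M hM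
    rw [List.nodup_cons] at hL
    have hφi := hi i List.mem_cons_self
    have h1 := ih hL.2 hφ (fun j hj => hi j (List.mem_cons_of_mem _ hj)) (HQ.map M hM i)
    have hρi : ∀ j ∈ L, (φ ∘ₗ ρ i) ∘ₗ τ j = φ ∘ₗ ρ i := by
      intro j hj
      have hji : j ≠ i := fun h => hL.1 (h ▸ hj)
      have := hi j (List.mem_cons_of_mem _ hj)
      refine LinearMap.ext fun N => ?_
      simp only [LinearMap.comp_apply]
      rw [← H.cτρ j i hji N]
      conv_rhs => rw [← this]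
      rfl
    have h2 := ih hL.2 (hφ.comp (H.bρ i)) hρi hM
    have e1 : ∀ N, φ (Lam ρ L (τ i N)) = φ (Lam ρ L N) := by
      intro N
      rw [Lam_comm_τ H i L hL.1]
      conv_rhs => rw [← hφi]
      rfl
    have e2 : ∀ N, (φ ∘ₗ ρ i) (Lam ρ L N) = φ (Lam ρ L (ρ i N)) := by
      intro N
      rw [Lam_comm_ρ H i L hL.1]
      rfl
    rw [e1, e1] at h1
    rw [e2, e2] at h2
    have e3 : ∀ N, (φ (Lam ρ (i :: L) N)).re =
        2 / 3 * (φ (Lam ρ L N)).re + 1 / 3 * (φ (Lam ρ L (ρ i N))).re := by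
      intro N
      simp only [Lam, LinearMap.comp_apply, LinearMap.add_apply, LinearMap.smul_apply,
        LinearMap.id_apply, map_add, map_smul, smul_eq_mul]
      have a : (2 / 3 : ℂ) = ((2 / 3 : ℝ) : ℂ) := by push_cast; rfl
      have b : (1 / 3 : ℂ) = ((1 / 3 : ℝ) : ℂ) := by push_cast; rfl
      rw [a, b, Complex.add_re, Complex.re_ofReal_mul, Complex.re_ofReal_mul]
    rw [e3, e3]
    have p : ∀ j k, 0 ≤ (φ (Lam ρ L (M j k))).re := fun j k =>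
      hφ _ (Lam_psd H.bρ L (HQ.psd M hM j k))
    have p' : ∀ j k, 0 ≤ (φ (Lam ρ L (ρ i (M j k)))).re := fun j k =>
      hφ _ (Lam_psd H.bρ L ((H.bρ i).psd (HQ.psd M hM j k)))
    refine le_trans ?_ (cs2 (p _ _) (p _ _) (p' _ _) (p' _ _))
    simp only [E]
    linarith

/-- The start: `T` is the noise on all sites, `ρ'` the label maps before the noise. -/
structure Noise (τ ρ ρ' : ι → (Matrix I I ℂ →ₗ[ℂ] Matrix I I ℂ))
    (T : Matrix I I ℂ →ₗ[ℂ] Matrix I I ℂ) (φ : Matrix I I ℂ →ₗ[ℂ] ℂ) : Prop where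
  bρ' : ∀ i, BP (ρ' i)
  bT : BP T
  swap : ∀ i X, ρ i (T X) = T (ρ' i X)
  start : ∀ M₀ M₁ W : Matrix I I ℂ, (fromBlocks M₀ W Wᴴ M₁).PosSemidef →
    ‖φ (T W)‖ ^ 2 ≤ S φ (T M₀) (T M₁) * √((φ (T M₀)).re * (φ (T M₁)).re)

theorem F_ge (H : Sites ι τ ρ δ) {ρ' : ι → (Matrix I I ℂ →ₗ[ℂ] Matrix I I ℂ)}
    {T : Matrix I I ℂ →ₗ[ℂ] Matrix I I ℂ} {φ : Matrix I I ℂ →ₗ[ℂ] ℂ} (hφ : PosF φ)
    (HN : Noise τ ρ ρ' T φ) : ∀ (L : List ι) (M₀ M₁ W : Matrix I I ℂ),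
    (fromBlocks M₀ W Wᴴ M₁).PosSemidef →
    ‖φ (Lam ρ L (T W))‖ ^ 2 ≤ F ρ L φ (T M₀) (T M₁) *
      √((φ (Lam ρ L (T M₀))).re * (φ (Lam ρ L (T M₁))).re) := by
  intro L
  induction L with
  | nil => intro M₀ M₁ W h; exact HN.start M₀ M₁ W h
  | cons i L ih =>
    intro M₀ M₁ W h
    have h1 := ih M₀ M₁ W h
    have h' : (fromBlocks (ρ' i M₀) (ρ' i W) (ρ' i W)ᴴ (ρ' i M₁)).PosSemidef := by
      rw [(HN.bρ' i).star]
      exact (HN.bρ' i).blk _ _ _ _ h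
    have h2 := ih _ _ _ h'
    rw [← HN.swap, ← HN.swap, ← HN.swap] at h2
    have hM0 : (T M₀).PosSemidef := HN.bT.psd (psd_left h)
    have hM1 : (T M₁).PosSemidef := HN.bT.psd (psd_right h)
    have e3 : ∀ N, φ (Lam ρ (i :: L) N) =
        ((2 / 3 : ℝ) : ℂ) * φ (Lam ρ L N) + ((1 / 3 : ℝ) : ℂ) * φ (Lam ρ L (ρ i N)) := by
      intro N
      simp only [Lam, LinearMap.comp_apply, LinearMap.add_apply, LinearMap.smul_apply,
        LinearMap.id_apply, map_add, map_smul, smul_eq_mul]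
      push_cast
      rfl
    have e4 : ∀ N, (φ (Lam ρ (i :: L) N)).re =
        2 / 3 * (φ (Lam ρ L N)).re + 1 / 3 * (φ (Lam ρ L (ρ i N))).re := by
      intro N
      rw [e3, Complex.add_re, Complex.re_ofReal_mul, Complex.re_ofReal_mul]
    rw [e4, e4]
    simp only [F]
    set f := F ρ L φ (T M₀) (T M₁) with hf
    set f' := F ρ L φ (ρ i (T M₀)) (ρ i (T M₁)) with hf'
    have f0 : 0 ≤ f := F_nonneg H.bρ L hφ hM0 hM1
    have f0' : 0 ≤ f' := F_nonneg H.bρ L hφ ((H.bρ i).psd hM0) ((H.bρ i).psd hM1)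
    have p0 : 0 ≤ (φ (Lam ρ L (T M₀))).re := hφ _ (Lam_psd H.bρ L hM0)
    have p1 : 0 ≤ (φ (Lam ρ L (T M₁))).re := hφ _ (Lam_psd H.bρ L hM1)
    have p0' : 0 ≤ (φ (Lam ρ L (ρ i (T M₀)))).re := hφ _ (Lam_psd H.bρ L ((H.bρ i).psd hM0))
    have p1' : 0 ≤ (φ (Lam ρ L (ρ i (T M₁)))).re := hφ _ (Lam_psd H.bρ L ((H.bρ i).psd hM1))
    have hcs := cs2 p0 p1 p0' p1'
    set g := √((φ (Lam ρ L (T M₀))).re * (φ (Lam ρ L (T M₁))).re) with hg
    set g' := √((φ (Lam ρ L (ρ i (T M₀)))).re * (φ (Lam ρ L (ρ i (T M₁)))).re) with hg'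
    have g0 : 0 ≤ g := Real.sqrt_nonneg _
    have g0' : 0 ≤ g' := Real.sqrt_nonneg _
    set u := φ (Lam ρ L (T W)) with hu
    set u' := φ (Lam ρ L (ρ i (T W))) with hu'
    have hn : ‖φ (Lam ρ (i :: L) (T W))‖ ≤ 2 / 3 * ‖u‖ + 1 / 3 * ‖u'‖ := by
      rw [e3]
      refine (norm_add_le _ _).trans (le_of_eq ?_)
      rw [norm_mul, norm_mul, Complex.norm_real, Complex.norm_real,
        Real.norm_of_nonneg (by norm_num : (0 : ℝ) ≤ 2 / 3),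
        Real.norm_of_nonneg (by norm_num : (0 : ℝ) ≤ 1 / 3)]
    have hu1 : ‖u‖ ≤ √(f * g) := Real.le_sqrt_of_sq_le h1
    have hu2 : ‖u'‖ ≤ √(f' * g') := Real.le_sqrt_of_sq_le h2
    have h3 : ‖φ (Lam ρ (i :: L) (T W))‖ ≤ √((2 / 3 * f + 1 / 3 * f') * (2 / 3 * g + 1 / 3 * g')) := by
      refine hn.trans (le_trans ?_ (cs2 f0 g0 f0' g0'))
      linarith
    have h4 := pow_le_pow_left₀ (norm_nonneg _) h3 2
    rw [Real.sq_sqrt (by positivity)] at h4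
    refine h4.trans ?_
    exact mul_le_mul_of_nonneg_left hcs (by positivity)

/-- The abstract main inequality. -/
theorem abs_main (H : Sites ι τ ρ δ) {ρ' : ι → (Matrix I I ℂ →ₗ[ℂ] Matrix I I ℂ)}
    {T : Matrix I I ℂ →ₗ[ℂ] Matrix I I ℂ} {φ : Matrix I I ℂ →ₗ[ℂ] ℂ} (hφ : PosF φ)
    (hφτ : ∀ i, φ ∘ₗ τ i = φ) (HN : Noise τ ρ ρ' T φ)
    {𝒬 : (Bool → Bool → Matrix I I ℂ) → Prop} (HQ : Prods τ 𝒬)
    {L : List ι} (hL : L.Nodup) {M : Bool → Bool → Matrix I I ℂ}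
    (hM : 𝒬 fun j k => T (M j k)) {W : Matrix I I ℂ}
    (hW : (fromBlocks (M false false) W Wᴴ (M true true)).PosSemidef) :
    ‖φ (Lam ρ L (T W))‖ ^ 4 ≤
      (φ (Lam ρ L (T (M false false)))).re * (φ (Lam ρ L (T (M false true)))).re *
      (φ (Lam ρ L (T (M true false)))).re * (φ (Lam ρ L (T (M true true)))).re := by
  have h1 := F_ge H hφ HN L _ _ _ hW
  have hM0 : (T (M false false)).PosSemidef := HN.bT.psd (psd_left hW)
  have hM1 : (T (M true true)).PosSemidef := HN.bT.psd (psd_right hW)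
  have h2 := F_le_E H L hL hφ (fun i _ => hφτ i) hM0 hM1
  have h3 := E_le H HQ L hL hφ (fun i _ => hφτ i) hM
  have h4 := h2.trans h3
  have h5 := h1.trans (mul_le_mul_of_nonneg_right h4 (Real.sqrt_nonneg _))
  have h6 := pow_le_pow_left₀ (by positivity) h5 2
  have p : ∀ j k, 0 ≤ (φ (Lam ρ L (T (M j k)))).re := fun j k =>
    hφ _ (Lam_psd H.bρ L (HQ.psd _ hM j k))
  rw [← pow_mul, mul_pow, Real.sq_sqrt (mul_nonneg (p _ _) (p _ _)),
    Real.sq_sqrt (mul_nonneg (p _ _) (p _ _))] at h6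
  refine h6.trans (le_of_eq ?_)
  ring

end

end Vale.Agent.P372.H654
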